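import Mathlib

namespace Vale.Agent.P063

/-- The set `E_{n,r}` of `r`-element subsets of the vertex set `[n] = Fin n`. -/
abbrev Edge (n r : ℕ) : Type := {e : Finset (Fin n) // e.card = r}

/-- A simple `r`-uniform hypergraph on `[n]`: a point of `{0,1}^{E_{n,r}}`. -/
abbrev Hypergraph (n r : ℕ) : Type := Edge n r → Bool

/-- The image of an edge under a permutation of the vertices. -/
def Edge.relabel {n r : ℕ} (σ : Equiv.Perm (Fin n)) (e : Edge n r) : Edge n r :=
  ⟨e.1.map σ.toEmbedding, by rw [Finset.card_map]; exact e.2⟩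

/-- `P` is invariant under all permutations of the vertex set. -/
def IsProperty {n r : ℕ} (P : Set (Hypergraph n r)) : Prop :=
  ∀ (σ : Equiv.Perm (Fin n)) (x : Hypergraph n r), x ∈ P → (fun e => x (e.relabel σ)) ∈ P

/-- Adding edges preserves membership in `P`. -/
def IsIncreasing {n r : ℕ} (P : Set (Hypergraph n r)) : Prop :=
  ∀ x y : Hypergraph n r, (∀ e, x e = true → y e = true) → x ∈ P → y ∈ P

/-- `P` is neither empty nor everything. -/
def IsNontrivial {n r : ℕ} (P : Set (Hypergraph n r)) : Prop :=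
  P ≠ ∅ ∧ P ≠ Set.univ

/-- The probability `μ_p(P)` that the random hypergraph, each edge present independently with
probability `p`, lies in `P`. -/
noncomputable def mu {n r : ℕ} (p : ℝ) (P : Set (Hypergraph n r)) : ℝ :=
  ∑ x : Hypergraph n r, P.indicator (fun x => ∏ e, if x e = true then p else 1 - p) x

/-- `p_a(P) = inf {p ∈ [0,1] : μ_p(P) ≥ a}`. -/
noncomputable def critProb {n r : ℕ} (a : ℝ) (P : Set (Hypergraph n r)) : ℝ :=
  sInf {p : ℝ | p ∈ Set.Icc (0 : ℝ) 1 ∧ a ≤ mu p P}

/-- The threshold width `w_ε(P) = p_{1-ε}(P) - p_ε(P)`. -/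
noncomputable def width {n r : ℕ} (ε : ℝ) (P : Set (Hypergraph n r)) : ℝ :=
  critProb (1 - ε) P - critProb ε P

end Vale.Agent.P063
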