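import Vale.Agent.P063.Sym
import Vale.Agent.P063.Defs

/-! The influence lower bound for hypergraph properties. -/

namespace Vale.Agent.P063

open Finset

variable {n r : ℕ} {p : ℝ}

def verts (S : Finset (Edge n r)) : Finset (Fin n) := S.biUnion (fun e => e.1)

def deg (S : Finset (Edge n r)) (u : Fin n) : ℕ := (S.filter (fun e => u ∈ e.1)).card

def relEquiv (σ : Equiv.Perm (Fin n)) : Edge n r ≃ Edge n r where
  toFun := Edge.relabel σ
  invFun := Edge.relabel σ.symm
  left_inv e := by
    apply Subtype.ext; simp [Edge.relabel, Finset.map_map]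
  right_inv e := by
    apply Subtype.ext; simp [Edge.relabel, Finset.map_map]

lemma mem_verts {S : Finset (Edge n r)} {u : Fin n} : u ∈ verts S ↔ ∃ e ∈ S, u ∈ e.1 := by
  simp [verts]

lemma mem_relabel_swap (u v w : Fin n) (e : Edge n r) :
    w ∈ (e.relabel (Equiv.swap u v)).1 ↔ Equiv.swap u v w ∈ e.1 := by
  simp [Edge.relabel, Finset.mem_map_equiv]

lemma vertex_est (h0 : 0 < p) (h1 : p < 1) (F : Hypergraph n r → ℝ)
    (hF : ∀ x, F x = 0 ∨ F x = 1)
    (hinv : ∀ (σ : Equiv.Perm (Fin n)) y, F (fun e => y (e.relabel σ)) = F y)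
    (U : Finset (Fin n)) (u : Fin n) (hu : u ∈ U)
    (d : ℕ) (δ : ℝ) (hδ0 : 0 ≤ δ) (hδ : 4 * (4 / (p * (1 - p))) ^ d ≤ δ ^ 3 * U.card) :
    (∑ S : Finset (Edge n r), if verts S ∩ U = {u} ∧ deg S u ≤ d then co p F S ^ 2 else 0)
      ≤ δ * (∑ S : Finset (Edge n r), if u ∈ verts S then co p F S ^ 2 else 0) := by
  set A : Finset (Edge n r) := Finset.univ.filter (fun e => Disjoint e.1 U) with hA
  set B : Fin n → Finset (Edge n r) := fun v => Finset.univ.filter (fun e => e.1 ∩ U = {v})
    with hB
  have mA : ∀ e, e ∈ A ↔ Disjoint e.1 U := by simp [hA]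
  have mB : ∀ v e, e ∈ B v ↔ e.1 ∩ U = {v} := by simp [hB]
  have key := sym_block_restrict h0 h1 U A B ?_ F hF u ?_ d δ hδ0 hδ
  · refine le_trans (Finset.sum_le_sum fun S _ => ?_) (key.trans ?_)
    · by_cases h : verts S ∩ U = {u} ∧ deg S u ≤ d
      · rw [if_pos h, if_pos]
        obtain ⟨h2, h3⟩ := h
        have hsub : ∀ e ∈ S \ A, e.1 ∩ U = {u} := by
          intro e he
          rw [Finset.mem_sdiff, mA] at he
          have hne : (e.1 ∩ U).Nonempty := Finset.not_disjoint_iff_nonempty_inter.mp he.2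
          have hs : e.1 ∩ U ⊆ {u} := by
            rw [← h2]
            exact Finset.inter_subset_inter_right fun w hw => mem_verts.mpr ⟨e, he.1, hw⟩
          exact (Finset.subset_singleton_iff.mp hs).resolve_left hne.ne_empty
        refine ⟨?_, fun e he => (mB u e).mpr (hsub e he), ?_⟩
        · have : u ∈ verts S ∩ U := by rw [h2]; simp
          obtain ⟨e, he, hue⟩ := mem_verts.mp (Finset.mem_inter.mp this).1
          apply Finset.ne_empty_of_mem (a := e)
          rw [Finset.mem_sdiff, mA]
          exact ⟨he, fun hd => Finset.disjoint_left.mp hd hue hu⟩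
        · refine le_trans (Finset.card_le_card fun e he => ?_) h3
          rw [Finset.mem_filter]
          refine ⟨(Finset.mem_sdiff.mp he).1, ?_⟩
          have : u ∈ e.1 ∩ U := by rw [hsub e he]; simp
          exact (Finset.mem_inter.mp this).1
      · rw [if_neg h]; split_ifs <;> positivity
    · refine mul_le_mul_of_nonneg_left (Finset.sum_le_sum fun S _ => ?_) hδ0
      by_cases h : ¬ Disjoint (S \ A) (B u)
      · rw [if_pos h, if_pos]
        obtain ⟨e, he1, he2⟩ := Finset.not_disjoint_iff.mp h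
        have : u ∈ e.1 ∩ U := by rw [(mB u e).mp he2]; simp
        exact mem_verts.mpr ⟨e, (Finset.mem_sdiff.mp he1).1, (Finset.mem_inter.mp this).1⟩
      · rw [if_neg h]; split_ifs <;> positivity
  · intro v _ w _ hvw
    rw [Finset.disjoint_left]
    intro e h2 h3
    rw [mB] at h2 h3
    exact hvw (Finset.singleton_injective (h2.symm.trans h3))
  · intro v hv
    have hsw : ∀ w, Equiv.swap u v w ∈ U ↔ w ∈ U := by
      intro w
      rw [Equiv.swap_apply_def]
      split_ifs with a b
      · simp [a, hu, hv]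
      · simp [b, hu, hv]
      · rfl
    refine ⟨relEquiv (Equiv.swap u v), fun y => hinv _ y, fun e he => ?_, fun e => ?_⟩
    · rw [mA] at he
      apply Subtype.ext
      ext w
      change w ∈ (e.relabel (Equiv.swap u v)).1 ↔ _
      rw [mem_relabel_swap, Equiv.swap_apply_def]
      have hu' : u ∉ e.1 := Finset.disjoint_right.mp he hu
      have hv' : v ∉ e.1 := Finset.disjoint_right.mp he hv
      split_ifs with a b
      · simp [a, hu', hv']
      · simp [b, hu', hv']
      · rfl
    · rw [mB, mB]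
      change (e.relabel (Equiv.swap u v)).1 ∩ U = {v} ↔ _
      simp only [Finset.ext_iff, Finset.mem_inter, mem_relabel_swap, Finset.mem_singleton]
      constructor
      · intro h w
        have := h (Equiv.swap u v w)
        rw [Equiv.swap_apply_self, hsw] at this
        rw [this, Equiv.swap_apply_eq_iff, Equiv.swap_apply_right]
      · intro h w
        have := h (Equiv.swap u v w)
        rw [hsw] at this
        rw [this, Equiv.swap_apply_eq_iff, Equiv.swap_apply_left]

lemma card_class (m M j : ℕ) (hm : 0 < m) (hM : M * m ≤ n) (hj : j < M) :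
    m ≤ (Finset.univ.filter (fun v : Fin n => v.val / m = j)).card := by
  have hlt : ∀ k : Fin m, j * m + k.val < n := by
    intro k
    have := k.2
    have : (j + 1) * m ≤ M * m := Nat.mul_le_mul_right m hj
    nlinarith
  have := Finset.card_le_card_of_injOn (s := (Finset.univ : Finset (Fin m)))
    (t := Finset.univ.filter (fun v : Fin n => v.val / m = j))
    (fun k => (⟨j * m + k.val, hlt k⟩ : Fin n)) ?_ ?_
  · simpa using this
  · intro k _
    simp only [Finset.coe_filter, Finset.mem_univ, true_and, Set.mem_ofPred_eq]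
    rw [add_comm, Nat.add_mul_div_right _ _ hm, Nat.div_eq_of_lt k.2, zero_add]
  · intro a _ b _ h
    simp only [Fin.mk.injEq, add_right_inj] at h
    exact Fin.ext h

lemma vertex_est2 (h0 : 0 < p) (h1 : p < 1) (F : Hypergraph n r → ℝ)
    (hF : ∀ x, F x = 0 ∨ F x = 1)
    (hinv : ∀ (σ : Equiv.Perm (Fin n)) y, F (fun e => y (e.relabel σ)) = F y)
    (m M : ℕ) (hm : 0 < m) (hM0 : 0 < M) (hM : M * m ≤ n) (u : Fin n)
    (d : ℕ) (δ : ℝ) (hδ0 : 0 ≤ δ) (hδ : 4 * (4 / (p * (1 - p))) ^ d ≤ δ ^ 3 * m) :
    (∑ S : Finset (Edge n r),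
        if u ∈ verts S ∧ deg S u ≤ d ∧ 2 * (verts S).card ≤ M then co p F S ^ 2 else 0)
      ≤ 2 * δ * (∑ S : Finset (Edge n r), if u ∈ verts S then co p F S ^ 2 else 0) := by
  set U : ℕ → Finset (Fin n) :=
    fun j => insert u (Finset.univ.filter (fun v : Fin n => v.val / m = j)) with hU
  set R := ∑ S : Finset (Edge n r), if u ∈ verts S then co p F S ^ 2 else 0 with hR
  have hj : ∀ j ∈ Finset.range M,
      (∑ S : Finset (Edge n r), if verts S ∩ U j = {u} ∧ deg S u ≤ d then co p F S ^ 2 else 0)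
        ≤ δ * R := by
    intro j hj
    refine vertex_est h0 h1 F hF hinv (U j) u (Finset.mem_insert_self _ _) d δ hδ0 (hδ.trans ?_)
    have : m ≤ (U j).card := (card_class m M j hm hM (Finset.mem_range.mp hj)).trans
      (Finset.card_le_card (Finset.subset_insert _ _))
    have : (m : ℝ) ≤ (U j).card := by exact_mod_cast this
    gcongr
  have hs := Finset.sum_le_sum hj
  rw [Finset.sum_const, Finset.card_range, nsmul_eq_mul, Finset.sum_comm] at hs
  have hMpos : (0 : ℝ) < M := by exact_mod_cast hM0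
  have : (M : ℝ) * (∑ S : Finset (Edge n r),
        if u ∈ verts S ∧ deg S u ≤ d ∧ 2 * (verts S).card ≤ M then co p F S ^ 2 else 0)
      ≤ 2 * ∑ S : Finset (Edge n r), ∑ j ∈ Finset.range M,
        if verts S ∩ U j = {u} ∧ deg S u ≤ d then co p F S ^ 2 else 0 := by
    rw [Finset.mul_sum, Finset.mul_sum]
    refine Finset.sum_le_sum fun S _ => ?_
    by_cases h : u ∈ verts S ∧ deg S u ≤ d ∧ 2 * (verts S).card ≤ M
    · rw [if_pos h, ← Finset.sum_filter, Finset.sum_const, nsmul_eq_mul, ← mul_assoc]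
      refine mul_le_mul_of_nonneg_right ?_ (sq_nonneg _)
      have hsub : Finset.range M \ (verts S).image (fun v => v.val / m)
          ⊆ (Finset.range M).filter (fun j => verts S ∩ U j = {u} ∧ deg S u ≤ d) := by
        intro j hj
        rw [Finset.mem_sdiff] at hj
        rw [Finset.mem_filter]
        refine ⟨hj.1, ?_, h.2.1⟩
        ext w
        simp only [hU, Finset.mem_inter, Finset.mem_insert, Finset.mem_filter, Finset.mem_univ,
          true_and, Finset.mem_singleton]
        constructor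
        · rintro ⟨a, b | b⟩
          · exact b
          · exact absurd (Finset.mem_image.mpr ⟨w, a, b⟩) hj.2
        · rintro rfl; exact ⟨h.1, Or.inl rfl⟩
      have c1 := Finset.card_le_card hsub
      have c2 := Finset.le_card_sdiff ((verts S).image (fun v => v.val / m)) (Finset.range M)
      have c3 : ((verts S).image (fun v => v.val / m)).card ≤ (verts S).card :=
        Finset.card_image_le
      rw [Finset.card_range] at c2
      have : M ≤ 2 * ((Finset.range M).filter
          (fun j => verts S ∩ U j = {u} ∧ deg S u ≤ d)).card := by omega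
      exact_mod_cast this
    · rw [if_neg h, mul_zero]
      exact mul_nonneg (by norm_num) (Finset.sum_nonneg fun j _ => by split_ifs <;> positivity)
  have h6 : (M : ℝ) * (∑ S : Finset (Edge n r),
        if u ∈ verts S ∧ deg S u ≤ d ∧ 2 * (verts S).card ≤ M then co p F S ^ 2 else 0)
      ≤ M * (2 * δ * R) := by nlinarith
  exact le_of_mul_le_mul_left h6 hMpos

lemma card_verts_le (S : Finset (Edge n r)) : (verts S).card ≤ r * S.card := by
  refine Finset.card_biUnion_le.trans (le_of_eq ?_)
  rw [Finset.sum_congr rfl (fun e _ => e.2), Finset.sum_const, smul_eq_mul, mul_comm]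

lemma sum_deg (S : Finset (Edge n r)) : ∑ u ∈ verts S, deg S u = r * S.card := by
  unfold deg
  simp_rw [Finset.card_filter]
  rw [Finset.sum_comm]
  rw [Finset.sum_congr rfl (g := fun _ => r), Finset.sum_const, smul_eq_mul, mul_comm]
  intro e he
  rw [← Finset.card_filter]
  refine Eq.trans ?_ e.2
  congr 1
  ext w
  simp only [Finset.mem_filter, and_iff_right_iff_imp]
  exact fun hw => mem_verts.mpr ⟨e, he, hw⟩

lemma deg_le (S : Finset (Edge n r)) (u : Fin n) : deg S u ≤ (verts S).card ^ (r - 1) := by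
  refine le_trans ?_ (Nat.choose_le_pow _ _)
  rw [← Finset.card_powersetCard]
  unfold deg
  apply Finset.card_le_card_of_injOn (fun e => e.1.erase u)
  · intro e he
    simp only [Finset.coe_filter, Set.mem_ofPred_eq] at he
    simp only [Finset.mem_coe, Finset.mem_powersetCard]
    refine ⟨fun w hw => mem_verts.mpr ⟨e, he.1, Finset.mem_of_mem_erase hw⟩, ?_⟩
    rw [Finset.card_erase_of_mem he.2, e.2]
  · intro a ha b hb h
    simp only [Finset.coe_filter, Set.mem_ofPred_eq] at ha hb
    apply Subtype.ext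
    rw [← Finset.insert_erase ha.2, ← Finset.insert_erase hb.2]
    simp only at h
    rw [h]

lemma big_of_mindeg (hr : 2 ≤ r) (S : Finset (Edge n r)) (hS : S ≠ ∅) (d : ℕ)
    (h : ∀ u ∈ verts S, d < deg S u) : (d + 1) ^ r ≤ (r * S.card) ^ (r - 1) := by
  obtain ⟨e, he⟩ := Finset.nonempty_iff_ne_empty.mpr hS
  obtain ⟨u, hu⟩ : e.1.Nonempty := by rw [← Finset.card_pos, e.2]; omega
  have hu' : u ∈ verts S := mem_verts.mpr ⟨e, he, hu⟩
  have a1 : d + 1 ≤ (verts S).card ^ (r - 1) := (h u hu').trans_le (deg_le S u)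
  have a2 : (verts S).card * (d + 1) ≤ r * S.card := by
    rw [← sum_deg, ← smul_eq_mul, ← Finset.sum_const]
    exact Finset.sum_le_sum h
  calc (d + 1) ^ r = (d + 1) * (d + 1) ^ (r - 1) := by
        rw [← pow_succ']; congr 1; omega
    _ ≤ (verts S).card ^ (r - 1) * (d + 1) ^ (r - 1) := Nat.mul_le_mul_right _ a1
    _ = ((verts S).card * (d + 1)) ^ (r - 1) := by rw [mul_pow]
    _ ≤ (r * S.card) ^ (r - 1) := Nat.pow_le_pow_left a2 _

/-- The combinatorial form of the main estimate. -/
lemma var_le (h0 : 0 < p) (h1 : p < 1) (F : Hypergraph n r → ℝ)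
    (hF : ∀ x, F x = 0 ∨ F x = 1)
    (hinv : ∀ (σ : Equiv.Perm (Fin n)) y, F (fun e => y (e.relabel σ)) = F y)
    (m M : ℕ) (hm : 0 < m) (hM0 : 0 < M) (hM : M * m ≤ n)
    (d : ℕ) (δ : ℝ) (hδ0 : 0 ≤ δ) (hδ : 4 * (4 / (p * (1 - p))) ^ d ≤ δ ^ 3 * m)
    (D : ℝ) (hD0 : 0 < D)
    (hD : ∀ S : Finset (Edge n r), S ≠ ∅ → (∀ u ∈ verts S, d < deg S u) → D ≤ S.card) :
    Ex p F * (1 - Ex p F)
      ≤ (2 * r / M + 2 * δ * r + 1 / D) * ∑ S : Finset (Edge n r), (S.card : ℝ) * co p F S ^ 2 := by
  rw [var_eq h0 h1 F hF]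
  have hMpos : (0 : ℝ) < M := by exact_mod_cast hM0
  have hbad : (∑ S : Finset (Edge n r), ∑ u,
        if u ∈ verts S ∧ deg S u ≤ d ∧ 2 * (verts S).card ≤ M then co p F S ^ 2 else 0)
      ≤ 2 * δ * r * ∑ S : Finset (Edge n r), (S.card : ℝ) * co p F S ^ 2 := by
    rw [Finset.sum_comm]
    refine (Finset.sum_le_sum fun u _ =>
      vertex_est2 h0 h1 F hF hinv m M hm hM0 hM u d δ hδ0 hδ).trans ?_
    rw [← Finset.mul_sum, Finset.sum_comm, mul_assoc (2 * δ)]
    have hδ2 : 0 ≤ 2 * δ := by positivity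
    refine mul_le_mul_of_nonneg_left ?_ hδ2
    rw [Finset.mul_sum]
    refine Finset.sum_le_sum fun S _ => ?_
    rw [← Finset.sum_filter, Finset.sum_const, nsmul_eq_mul, ← mul_assoc]
    refine mul_le_mul_of_nonneg_right ?_ (sq_nonneg _)
    have : (Finset.univ.filter (fun u => u ∈ verts S)) = verts S := by ext; simp
    rw [this]
    exact_mod_cast card_verts_le S
  have hpt : ∀ S : Finset (Edge n r), (if S ≠ ∅ then co p F S ^ 2 else 0)
      ≤ (2 * r / M + 1 / D) * ((S.card : ℝ) * co p F S ^ 2) + ∑ u,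
        if u ∈ verts S ∧ deg S u ≤ d ∧ 2 * (verts S).card ≤ M then co p F S ^ 2 else 0 := by
    intro S
    have hnn : 0 ≤ ∑ u,
        if u ∈ verts S ∧ deg S u ≤ d ∧ 2 * (verts S).card ≤ M then co p F S ^ 2 else 0 :=
      Finset.sum_nonneg fun u _ => by split_ifs <;> positivity
    have ha : 0 ≤ co p F S ^ 2 := sq_nonneg _
    have t1 : 0 ≤ (2 * r / M : ℝ) * ((S.card : ℝ) * co p F S ^ 2) := by positivity
    have t2 : 0 ≤ (1 / D : ℝ) * ((S.card : ℝ) * co p F S ^ 2) := by positivity
    rw [add_mul]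
    by_cases hS : S ≠ ∅
    · rw [if_pos hS]
      by_cases hb : ∀ u ∈ verts S, d < deg S u
      · have := hD S hS hb
        have h7 : (1 : ℝ) ≤ 1 / D * S.card := by
          rw [one_div, ← div_eq_inv_mul, le_div_iff₀ hD0]; linarith
        nlinarith
      · push Not at hb
        obtain ⟨u, hu, hd⟩ := hb
        by_cases hsm : 2 * (verts S).card ≤ M
        · have := Finset.single_le_sum (f := fun u =>
            if u ∈ verts S ∧ deg S u ≤ d ∧ 2 * (verts S).card ≤ M then co p F S ^ 2 else 0)
            (fun u _ => by split_ifs <;> positivity) (Finset.mem_univ u)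
          simp only [hu, hd, hsm, and_self, if_true] at this
          simp only [hsm, and_true] at hnn ⊢
          simp only [and_true] at this
          linarith
        · have c1 := card_verts_le S
          have c2 : M ≤ 2 * (r * S.card) := by omega
          have c3 : (M : ℝ) ≤ 2 * (r * S.card) := by exact_mod_cast c2
          have h7 : (1 : ℝ) ≤ 2 * r / M * S.card := by
            rw [div_mul_eq_mul_div, le_div_iff₀ hMpos]; linarith
          nlinarith
    · rw [if_neg hS]; linarith
  refine (Finset.sum_le_sum fun S _ => hpt S).trans ?_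
  rw [Finset.sum_add_distrib, ← Finset.mul_sum]
  linarith

end Vale.Agent.P063
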