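import Vale.Agent.P063.Hyper

/-! The influence bound with explicit parameters, and integration of the differential
inequality. -/

namespace Vale.Agent.P063

open Finset

variable {n r : ℕ} {p : ℝ}

lemma numeric_bound (r m lam l s t y z : ℝ) (hr2 : 2 ≤ r) (hm1 : 1 ≤ m) (hl0 : 0 < lam)
    (hl1 : lam ≤ 1 / 4) (hlpos : 0 < l) (hs1 : 0 < s) (hs2 : s ≤ 2) (ht1 : 1 ≤ t)
    (het : Real.exp t = 4 / lam) (hy : y = l / (4 * t)) (hz : z = Real.exp (l / 12))
    (hm2 : z ^ 6 ≤ 2 * m) :
    (2 * r / m + 2 * (2 / z) * r + 1 / (y ^ s / r)) * (lam * l ^ s) ≤ 1000 * r := by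
  have hy0 : 0 < y := by rw [hy]; positivity
  have hz1 : 1 ≤ z := by rw [hz]; exact Real.one_le_exp (by positivity)
  have hys : 0 < y ^ s := Real.rpow_pos_of_pos hy0 s
  have hls : 0 < l ^ s := Real.rpow_pos_of_pos hlpos s
  have b1 : l ^ s ≤ 289 * z := by
    have a : l ^ s ≤ 1 + l ^ 2 := by
      rcases le_total l 1 with h | h
      · have := Real.rpow_le_one hlpos.le h hs1.le
        nlinarith
      · have := Real.rpow_le_rpow_of_exponent_le h hs2
        rw [Real.rpow_two] at this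
        linarith
    have b : (l / 12) ^ 2 / 2 ≤ z := by
      have := Real.pow_div_factorial_le_exp (l / 12) (by positivity) 2
      rw [hz]
      simpa [Nat.factorial] using this
    have c : (l / 12) ^ 2 / 2 = l ^ 2 / 288 := by ring
    rw [c] at b
    linarith
  have b2 : lam * l ^ s ≤ 128 * y ^ s := by
    have a : l ^ s = (4 * t) ^ s * y ^ s := by
      rw [← Real.mul_rpow (by positivity) hy0.le]
      congr 1
      rw [hy]; field_simp
    have b : (4 * t) ^ s ≤ (4 * t) ^ 2 := by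
      have := Real.rpow_le_rpow_of_exponent_le (show 1 ≤ 4 * t by linarith) hs2
      rwa [Real.rpow_two] at this
    have c : t ^ 2 / 2 ≤ 4 / lam := by
      have := Real.pow_div_factorial_le_exp t (by linarith) 2
      rw [het] at this
      simpa [Nat.factorial] using this
    rw [le_div_iff₀ hl0] at c
    rw [a, ← mul_assoc]
    refine mul_le_mul_of_nonneg_right ?_ hys.le
    have e := mul_le_mul_of_nonneg_left b hl0.le
    have f : lam * (4 * t) ^ 2 = 32 * (t ^ 2 / 2 * lam) := by ring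
    linarith
  have c1 : (2 * r / m : ℝ) ≤ 4 * r / z := by
    rw [div_le_div_iff₀ (by positivity) (by positivity)]
    have : z ≤ z ^ 6 := le_self_pow₀ hz1 (by norm_num)
    have e : r * z ≤ r * (2 * m) := mul_le_mul_of_nonneg_left (this.trans hm2) (by linarith)
    linarith
  have c2 : lam * l ^ s / z ≤ 289 / 4 := by
    rw [div_le_iff₀ (by positivity)]
    have := mul_le_mul hl1 b1 hls.le (by norm_num)
    linarith
  have c3 : lam * l ^ s / y ^ s ≤ 128 := by
    rw [div_le_iff₀ hys]; exact b2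
  have c4 : 0 ≤ lam * l ^ s := by positivity
  calc _ ≤ (4 * r / z + 2 * (2 / z) * r + 1 / (y ^ s / r)) * (lam * l ^ s) := by gcongr
    _ = r * (8 * (lam * l ^ s / z) + lam * l ^ s / y ^ s) := by field_simp; ring
    _ ≤ r * (8 * (289 / 4) + 128) := by gcongr
    _ ≤ 1000 * r := by linarith

theorem infl_bound (hr : 2 ≤ r) (hn : r ≤ n) (h0 : 0 < p) (h1 : p < 1)
    (F : Hypergraph n r → ℝ) (hF : ∀ x, F x = 0 ∨ F x = 1)
    (hinv : ∀ (σ : Equiv.Perm (Fin n)) y, F (fun e => y (e.relabel σ)) = F y) :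
    Ex p F * (1 - Ex p F) * (Real.log n ^ ((r : ℝ) / ((r : ℝ) - 1)) / (1000 * r))
      ≤ (∑ S : Finset (Edge n r), (S.card : ℝ) * co p F S ^ 2) / (p * (1 - p)) := by
  set lam := p * (1 - p) with hlam
  have hl0 : 0 < lam := mul_pos h0 (by linarith)
  have hl1 : lam ≤ 1 / 4 := by nlinarith [sq_nonneg (2 * p - 1)]
  have hn2 : (2 : ℝ) ≤ n := by exact_mod_cast hr.trans hn
  have hr2 : (2 : ℝ) ≤ r := by exact_mod_cast hr
  set l := Real.log n with hl
  have hlpos : 0 < l := Real.log_pos (by linarith)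
  set s := (r : ℝ) / ((r : ℝ) - 1) with hs
  have hs1 : 0 < s := div_pos (by linarith) (by linarith)
  have hs2 : s ≤ 2 := by rw [hs, div_le_iff₀ (by linarith)]; linarith
  set t := Real.log (4 / lam) with ht
  have h16 : (16 : ℝ) ≤ 4 / lam := by rw [le_div_iff₀ hl0]; linarith
  have het : Real.exp t = 4 / lam := Real.exp_log (by positivity)
  have ht1 : 1 ≤ t := by
    rw [ht, Real.le_log_iff_exp_le (by positivity)]
    have := Real.exp_one_lt_d9
    linarith
  set y := l / (4 * t) with hy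
  have hy0 : 0 < y := by positivity
  set d := ⌊y⌋₊ with hd
  have hdy : (d : ℝ) ≤ y := Nat.floor_le hy0.le
  have hdy' : y < d + 1 := Nat.lt_floor_add_one y
  set z := Real.exp (l / 12) with hz
  have hz1 : 1 ≤ z := Real.one_le_exp (by positivity)
  have hz12 : z ^ 12 = n := by
    rw [hz, ← Real.exp_nat_mul]
    have : ((12 : ℕ) : ℝ) * (l / 12) = l := by push_cast; ring
    rw [this, hl, Real.exp_log (by linarith)]
  have hAd : (4 / lam) ^ d ≤ z ^ 3 := by
    rw [← het, hz, ← Real.exp_nat_mul, ← Real.exp_nat_mul, Real.exp_le_exp]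
    have : y * t = l / 4 := by rw [hy]; field_simp
    push_cast
    nlinarith
  set m := Nat.sqrt n with hm
  have hm0 : 0 < m := Nat.sqrt_pos.mpr (by omega)
  have hmm : m * m ≤ n := Nat.sqrt_le n
  have hm1 : (1 : ℝ) ≤ m := by exact_mod_cast hm0
  have hm2 : z ^ 6 ≤ 2 * m := by
    have a : n < (m + 1) * (m + 1) := Nat.lt_succ_sqrt n
    have b : (n : ℝ) ≤ (m + 1) * (m + 1) := by exact_mod_cast a.le
    have c : (z ^ 6) ^ 2 ≤ (2 * m : ℝ) ^ 2 := by
      rw [← pow_mul, hz12]; nlinarith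
    exact le_of_pow_le_pow_left₀ (by norm_num) (by positivity) c
  have hδ : 4 * (4 / lam) ^ d ≤ (2 / z) ^ 3 * m := by
    have : (2 / z) ^ 3 * m = 4 * (2 * m) / z ^ 3 := by field_simp; ring
    rw [this, le_div_iff₀ (by positivity)]
    have : (4 / lam) ^ d * z ^ 3 ≤ z ^ 3 * z ^ 3 :=
      mul_le_mul_of_nonneg_right hAd (by positivity)
    nlinarith
  have hys : 0 < y ^ s := Real.rpow_pos_of_pos hy0 s
  have key := var_le h0 h1 F hF hinv m m hm0 hm0 hmm d (2 / z) (by positivity) hδ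
    (y ^ s / r) (by positivity) (by
      intro S hS h
      have a := big_of_mindeg hr S hS d h
      have b : ((d : ℝ) + 1) ^ r ≤ ((r : ℝ) * S.card) ^ (r - 1) := by exact_mod_cast a
      have c : (y ^ s) ^ (r - 1) = y ^ r := by
        rw [← Real.rpow_natCast, ← Real.rpow_mul hy0.le, ← Real.rpow_natCast]
        congr 1
        rw [Nat.cast_sub (by omega), hs]
        have : (r : ℝ) - 1 ≠ 0 := by linarith
        push_cast
        field_simp
      have e : (y ^ s) ^ (r - 1) ≤ ((r : ℝ) * S.card) ^ (r - 1) := by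
        rw [c]; exact (pow_le_pow_left₀ hy0.le hdy'.le r).trans b
      have f := le_of_pow_le_pow_left₀ (by omega) (by positivity) e
      rw [div_le_iff₀ (by linarith)]; linarith)
  set K := ∑ S : Finset (Edge n r), (S.card : ℝ) * co p F S ^ 2 with hK
  have hK0 : 0 ≤ K := Finset.sum_nonneg fun S _ => by positivity
  have hls : 0 < l ^ s := Real.rpow_pos_of_pos hlpos s
  have b3 : (2 * r / m + 2 * (2 / z) * r + 1 / (y ^ s / r)) * (lam * l ^ s) ≤ 1000 * r :=
    numeric_bound r m lam l s t y z hr2 hm1 hl0 hl1 hlpos hs1 hs2 ht1 het hy hz hm2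
  rw [le_div_iff₀ hl0]
  set c := (2 * r / m + 2 * (2 / z) * r + 1 / (y ^ s / r) : ℝ)
  have hr0 : (0 : ℝ) < 1000 * r := by positivity
  have : Ex p F * (1 - Ex p F) * (l ^ s / (1000 * r)) * lam
      = Ex p F * (1 - Ex p F) * (lam * l ^ s) / (1000 * r) := by ring
  rw [this, div_le_iff₀ hr0]
  have c4 : 0 ≤ lam * l ^ s := by positivity
  calc _ ≤ c * K * (lam * l ^ s) := mul_le_mul_of_nonneg_right key c4
    _ = K * (c * (lam * l ^ s)) := by ring
    _ ≤ K * (1000 * r) := mul_le_mul_of_nonneg_left b3 hK0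

/-- Integration of the differential inequality `μ' ≥ L μ (1 - μ)`. -/
lemma width_of_deriv (μ μ' : ℝ → ℝ) (L : ℝ) (hL : 0 < L) (hc : Continuous μ)
    (hz : μ 0 = 0) (ho : μ 1 = 1)
    (hpos : ∀ q, 0 < q → q < 1 → 0 < μ q ∧ μ q < 1)
    (hd : ∀ q, 0 < q → q < 1 → HasDerivAt μ (μ' q) q ∧ μ q * (1 - μ q) * L ≤ μ' q)
    (ε : ℝ) (he0 : 0 < ε) (he1 : ε < 1 / 2) :
    sInf {q : ℝ | q ∈ Set.Icc (0 : ℝ) 1 ∧ 1 - ε ≤ μ q}
      - sInf {q : ℝ | q ∈ Set.Icc (0 : ℝ) 1 ∧ ε ≤ μ q} ≤ 4 * Real.log (1 / (2 * ε)) / L := by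
  set a := sInf {q : ℝ | q ∈ Set.Icc (0 : ℝ) 1 ∧ ε ≤ μ q} with ha
  have hcl : IsClosed {q : ℝ | q ∈ Set.Icc (0 : ℝ) 1 ∧ ε ≤ μ q} :=
    isClosed_Icc.inter (isClosed_le continuous_const hc)
  have hmem : a ∈ {q : ℝ | q ∈ Set.Icc (0 : ℝ) 1 ∧ ε ≤ μ q} :=
    hcl.csInf_mem ⟨1, ⟨by simp, by rw [ho]; linarith⟩⟩ ⟨0, fun q hq => hq.1.1⟩
  obtain ⟨⟨ha0, ha1⟩, haε⟩ := hmem
  have ha0' : 0 < a := lt_of_le_of_ne ha0 (fun h => by rw [← h, hz] at haε; linarith)
  have hbdd : BddBelow {q : ℝ | q ∈ Set.Icc (0 : ℝ) 1 ∧ 1 - ε ≤ μ q} := ⟨0, fun q hq => hq.1.1⟩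
  set lam := Real.log (1 - ε) - Real.log ε with hlam
  have hlam0 : 0 ≤ lam := by
    have := Real.log_le_log he0 (show ε ≤ 1 - ε by linarith)
    linarith
  have hlam1 : lam ≤ 2 * Real.log (1 / (2 * ε)) := by
    rw [hlam, ← Real.log_div (by linarith) he0.ne']
    have : 2 * Real.log (1 / (2 * ε)) = Real.log ((1 / (2 * ε)) ^ 2) := by
      rw [Real.log_pow]; norm_num
    rw [this]
    apply Real.log_le_log (div_pos (by linarith) he0)
    rw [div_pow, div_le_div_iff₀ he0 (by positivity)]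
    nlinarith [sq_nonneg (2 * ε - 1)]
  set Δ := 2 * lam / L with hΔ
  have hΔ0 : 0 ≤ Δ := by positivity
  have hΔ1 : Δ ≤ 4 * Real.log (1 / (2 * ε)) / L := by
    rw [hΔ]; exact div_le_div_of_nonneg_right (by linarith) hL.le
  suffices h : sInf {q : ℝ | q ∈ Set.Icc (0 : ℝ) 1 ∧ 1 - ε ≤ μ q} ≤ a + Δ by linarith
  by_cases hb : 1 ≤ a + Δ
  · exact (csInf_le hbdd ⟨by simp, by rw [ho]; linarith⟩).trans hb
  push Not at hb
  refine csInf_le hbdd ⟨⟨by linarith, hb.le⟩, ?_⟩
  set g : ℝ → ℝ := fun q => Real.log (μ q) - Real.log (1 - μ q) - L * q with hg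
  have hgd : ∀ q, 0 < q → q < 1 →
      HasDerivAt g (μ' q / μ q - (-μ' q) / (1 - μ q) - L) q := by
    intro q q0 q1
    obtain ⟨m0, m1⟩ := hpos q q0 q1
    have e1 := (hd q q0 q1).1.log m0.ne'
    have e2 := ((hd q q0 q1).1.const_sub 1).log (by linarith : 1 - μ q ≠ 0)
    have e3 := (hasDerivAt_id' q).const_mul L
    exact HasDerivAt.congr_deriv ((e1.sub e2).sub e3) (by ring)
  have hmono : MonotoneOn g (Set.Icc a (a + Δ)) := by
    apply monotoneOn_of_deriv_nonneg (convex_Icc _ _)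
    · intro q hq
      exact (hgd q (by linarith [hq.1]) (by linarith [hq.2])).continuousAt.continuousWithinAt
    · intro q hq
      have hq' := interior_subset hq
      exact (hgd q (by linarith [hq'.1])
        (by linarith [hq'.2])).differentiableAt.differentiableWithinAt
    · intro q hq
      have hq' := interior_subset hq
      have q0 : 0 < q := by linarith [hq'.1]
      have q1 : q < 1 := by linarith [hq'.2]
      rw [(hgd q q0 q1).deriv]
      obtain ⟨m0, m1⟩ := hpos q q0 q1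
      have h5 := (hd q q0 q1).2
      have m2 : 0 < 1 - μ q := by linarith
      have : μ' q / μ q - -μ' q / (1 - μ q) = μ' q / (μ q * (1 - μ q)) := by
        field_simp; ring
      rw [this, sub_nonneg, le_div_iff₀ (mul_pos m0 m2)]
      linarith
  have h6 := hmono ⟨le_rfl, by linarith⟩ ⟨by linarith, le_rfl⟩ (by linarith : a ≤ a + Δ)
  simp only [hg] at h6
  obtain ⟨m0, m1⟩ := hpos a ha0' (by linarith)
  obtain ⟨n0, n1⟩ := hpos (a + Δ) (by linarith) hb
  have hLΔ : L * Δ = 2 * lam := by rw [hΔ]; field_simp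
  have i1 := Real.log_le_log he0 haε
  have i2 := Real.log_le_log (show 0 < 1 - μ a by linarith) (show 1 - μ a ≤ 1 - ε by linarith)
  by_contra hcon
  push Not at hcon
  have i3 := Real.log_lt_log n0 hcon
  have i4 := Real.log_le_log he0 (show ε ≤ 1 - μ (a + Δ) by linarith)
  nlinarith

theorem width_bound (hr : 2 ≤ r) (hn : r ≤ n) (P : Set (Hypergraph n r)) (hP : IsProperty P)
    (hI : IsIncreasing P) (hN : IsNontrivial P) (ε : ℝ) (he0 : 0 < ε) (he1 : ε < 1 / 2) :
    width ε P ≤ 4000 * r * Real.log (1 / (2 * ε)) * Real.log n ^ (-((r : ℝ) / ((r : ℝ) - 1))) := by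
  classical
  set F : Hypergraph n r → ℝ := fun x => if x ∈ P then 1 else 0 with hFdef
  have hF : ∀ x, F x = 0 ∨ F x = 1 := fun x => by simp only [hFdef]; split_ifs <;> simp
  have hmu : ∀ q, mu q P = Ex q F := by
    intro q
    unfold mu Ex
    refine Finset.sum_congr rfl fun x _ => ?_
    by_cases hx : x ∈ P
    · simp [hFdef, hx, wt, om]
    · simp [hFdef, hx]
  have hinv : ∀ (σ : Equiv.Perm (Fin n)) y, F (fun e => y (e.relabel σ)) = F y := by
    intro σ y
    have : (fun e => y (Edge.relabel σ e)) ∈ P ↔ y ∈ P := by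
      refine ⟨fun h => ?_, hP σ y⟩
      have := hP σ.symm _ h
      convert this using 1
      funext e
      exact congrArg y ((relEquiv σ).right_inv e).symm
    simp only [hFdef, this]
  have hmon : ∀ e x, F (Function.update x e false) ≤ F (Function.update x e true) := by
    intro e x
    simp only [hFdef]
    by_cases h : Function.update x e false ∈ P
    · rw [if_pos h, if_pos]
      refine hI _ _ (fun e' he' => ?_) h
      by_cases h2 : e' = e
      · subst h2; simp
      · rwa [Function.update_of_ne h2] at he' ⊢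
    · rw [if_neg h]; split_ifs <;> norm_num
  obtain ⟨x1, hx1⟩ := Set.nonempty_iff_ne_empty.mpr hN.1
  obtain ⟨x0, hx0⟩ := (Set.ne_univ_iff_exists_notMem P).mp hN.2
  have htop : (fun _ => true) ∈ P := hI x1 _ (fun _ _ => rfl) hx1
  have hbot : (fun _ => false) ∉ P := fun h => hx0 (hI _ x0 (fun _ h => by simp at h) h)
  have hn2 : (2 : ℝ) ≤ n := by exact_mod_cast hr.trans hn
  have hr2 : (2 : ℝ) ≤ r := by exact_mod_cast hr
  have hlpos : 0 < Real.log n := Real.log_pos (by linarith)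
  have hls : 0 < Real.log n ^ ((r : ℝ) / ((r : ℝ) - 1)) := Real.rpow_pos_of_pos hlpos _
  have key := width_of_deriv (fun q => Ex q F)
    (fun q => (∑ S : Finset (Edge n r), (S.card : ℝ) * co q F S ^ 2) / (q * (1 - q)))
    (Real.log n ^ ((r : ℝ) / ((r : ℝ) - 1)) / (1000 * r)) (by positivity) ?_ ?_ ?_ ?_ ?_ ε he0 he1
  · unfold width critProb
    simp_rw [hmu]
    refine key.trans (le_of_eq ?_)
    rw [Real.rpow_neg hlpos.le]
    field_simp
    ring
  · unfold Ex wt
    refine continuous_finsetSum _ fun x _ => Continuous.mul ?_ continuous_const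
    refine continuous_finsetProd _ fun i _ => ?_
    unfold om
    split_ifs <;> fun_prop
  · unfold Ex
    refine Finset.sum_eq_zero fun x _ => ?_
    by_cases hx : x = fun _ => false
    · simp [hFdef, hx, hbot]
    · obtain ⟨e, he⟩ := Function.ne_iff.mp hx
      have : wt 0 x = 0 := Finset.prod_eq_zero (Finset.mem_univ e) (by simp_all [om])
      simp [this]
  · unfold Ex
    rw [Finset.sum_eq_single (fun _ => true)]
    · simp [hFdef, htop, wt, om]
    · intro x _ hx
      obtain ⟨e, he⟩ := Function.ne_iff.mp hx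
      have : wt 1 x = 0 := Finset.prod_eq_zero (Finset.mem_univ e) (by simp_all [om])
      simp [this]
    · simp
  · intro q q0 q1
    have hpos : ∀ (G : Hypergraph n r → ℝ) (x : Hypergraph n r), (∀ y, 0 ≤ G y) → 0 < G x →
        0 < Ex q G := fun G x hG hx =>
      Finset.sum_pos' (fun y _ => mul_nonneg (wt_pos q0 q1 y).le (hG y))
        ⟨x, Finset.mem_univ _, mul_pos (wt_pos q0 q1 x) hx⟩
    refine ⟨hpos F x1 (fun y => by rcases hF y with h | h <;> simp [h]) (by simp [hFdef, hx1]), ?_⟩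
    have := hpos (fun y => 1 - F y) x0 (fun y => by rcases hF y with h | h <;> simp [h])
      (by simp [hFdef, hx0])
    rw [Ex_sub, Ex_const] at this
    linarith
  · intro q q0 q1
    exact ⟨russo q0 q1 F hF hmon, infl_bound hr hn q0 q1 F hF hinv⟩

end Vale.Agent.P063
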