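import Vale.Agent.P063.Bonami

/-! Restrictions, symmetric blocks and the Margulis-Russo formula. -/

set_option linter.unusedSectionVars false

namespace Vale.Agent.P063

open Finset

variable {ι : Type} [Fintype ι] [DecidableEq ι] {p : ℝ}

lemma co_restrict (h0 : 0 < p) (h1 : p < 1) (A : Finset ι) (F : (ι → Bool) → ℝ) (h : ι → Bool)
    (T : Finset ι) :
    co p (fun y => F (A.piecewise h y)) T
      = ∑ S : Finset ι, if S \ A = T then co p F S * chi p (S ∩ A) h else 0 := by
  unfold co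
  have : ∀ y, F (A.piecewise h y) * chi p T y
      = ∑ S : Finset ι, (co p F S * chi p (S ∩ A) h) * (chi p (S \ A) y * chi p T y) := by
    intro y
    rw [expand h0 h1 F, Finset.sum_mul]
    refine Finset.sum_congr rfl fun S _ => ?_
    rw [chi_piecewise]; ring
  rw [Ex_congr this, Ex_sum]
  refine Finset.sum_congr rfl fun S _ => ?_
  rw [Ex_mul_left, Ex_chi_mul h0 h1]
  unfold co
  split_ifs <;> simp

lemma Ex_co_restrict_sq (h0 : 0 < p) (h1 : p < 1) (A : Finset ι) (F : (ι → Bool) → ℝ)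
    (T : Finset ι) :
    Ex p (fun h => co p (fun y => F (A.piecewise h y)) T ^ 2)
      = ∑ S : Finset ι, if S \ A = T then co p F S ^ 2 else 0 := by
  have : ∀ h, co p (fun y => F (A.piecewise h y)) T ^ 2
      = ∑ S : Finset ι, ∑ S' : Finset ι,
          ((if S \ A = T then co p F S else 0) * (if S' \ A = T then co p F S' else 0))
            * (chi p (S ∩ A) h * chi p (S' ∩ A) h) := by
    intro h
    rw [co_restrict h0 h1, sq, Finset.sum_mul_sum]
    refine Finset.sum_congr rfl fun S _ => Finset.sum_congr rfl fun S' _ => ?_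
    split_ifs <;> ring
  rw [Ex_congr this, Ex_sum]
  refine Finset.sum_congr rfl fun S _ => ?_
  rw [Ex_sum, Finset.sum_eq_single S]
  · rw [Ex_mul_left, Ex_chi_mul h0 h1]; split_ifs <;> simp_all [sq]
  · intro S' _ hne
    rw [Ex_mul_left, Ex_chi_mul h0 h1]
    by_cases h2 : S \ A = T ∧ S' \ A = T
    · rw [if_neg (c := S ∩ A = S' ∩ A), mul_zero]
      intro h3
      apply hne
      rw [← Finset.sdiff_union_inter S A, ← Finset.sdiff_union_inter S' A, h3, h2.1, h2.2]
    · rw [not_and_or] at h2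
      rcases h2 with h2 | h2 <;> simp [h2]
  · simp

lemma Ex_restrict_sum (h0 : 0 < p) (h1 : p < 1) (A : Finset ι) (F : (ι → Bool) → ℝ)
    (Q : Finset ι → Prop) [DecidablePred Q] :
    Ex p (fun h => ∑ T : Finset ι,
        if Q T then co p (fun y => F (A.piecewise h y)) T ^ 2 else 0)
      = ∑ S : Finset ι, if Q (S \ A) then co p F S ^ 2 else 0 := by
  rw [Ex_sum]
  have : ∀ T, Ex p (fun h => if Q T then co p (fun y => F (A.piecewise h y)) T ^ 2 else 0)
      = ∑ S : Finset ι, if S \ A = T then (if Q T then co p F S ^ 2 else 0) else 0 := by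
    intro T
    by_cases hQ : Q T
    · simp only [hQ, if_true]; exact Ex_co_restrict_sq h0 h1 A F T
    · simp [hQ, Ex_const]
  simp_rw [this]
  rw [Finset.sum_comm]
  refine Finset.sum_congr rfl fun S _ => ?_
  simp

lemma co_map (τ : ι ≃ ι) (F : (ι → Bool) → ℝ) (hF : ∀ y, F (fun i => y (τ i)) = F y)
    (T : Finset ι) : co p F (T.map τ.toEmbedding) = co p F T := by
  unfold co Ex
  symm
  rw [← Equiv.sum_comp (Equiv.arrowCongr τ.symm (Equiv.refl Bool))]
  refine Finset.sum_congr rfl fun y _ => ?_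
  have e : (Equiv.arrowCongr τ.symm (Equiv.refl Bool)) y = fun i => y (τ i) := by
    funext i; simp [Equiv.arrowCongr]
  rw [e]
  simp only [hF]
  have w : wt p (fun i => y (τ i)) = wt p y := by
    unfold wt; exact Equiv.prod_comp τ (fun i => om p (y i))
  rw [w]
  unfold chi
  rw [Finset.prod_map]; rfl

lemma sym_block (h0 : 0 < p) (h1 : p < 1) {α : Type} [DecidableEq α] (U : Finset α)
    (B : α → Finset ι) (hdisj : ∀ u ∈ U, ∀ v ∈ U, u ≠ v → Disjoint (B u) (B v))
    (F : (ι → Bool) → ℝ) (hF : ∀ x, F x = 0 ∨ F x = 1) (u : α)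
    (hsym : ∀ v ∈ U, ∃ τ : ι ≃ ι, (∀ y, F (fun i => y (τ i)) = F y) ∧
      ∀ i, τ i ∈ B v ↔ i ∈ B u)
    (d : ℕ) (δ : ℝ) (hδ0 : 0 ≤ δ) (hδ : 4 * (4 / (p * (1 - p))) ^ d ≤ δ ^ 3 * U.card) :
    (∑ T : Finset ι, if T ≠ ∅ ∧ T ⊆ B u ∧ T.card ≤ d then co p F T ^ 2 else 0)
      ≤ δ * (∑ T : Finset ι, if ¬ Disjoint T (B u) then co p F T ^ 2 else 0) := by
  have hk := block_kkl h0 h1 F hF (B u) d
  have e0 : (∑ T : Finset ι, if Disjoint T (B u) then 0 else co p F T ^ 2)
      = ∑ T : Finset ι, if ¬ Disjoint T (B u) then co p F T ^ 2 else 0 :=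
    Finset.sum_congr rfl fun T _ => by split_ifs <;> rfl
  rw [e0] at hk
  set X := ∑ T : Finset ι, if T ≠ ∅ ∧ T ⊆ B u ∧ T.card ≤ d then co p F T ^ 2 else 0 with hX
  set η := ∑ T : Finset ι, if ¬ Disjoint T (B u) then co p F T ^ 2 else 0 with hη
  set A := (4 / (p * (1 - p))) ^ d with hA
  have hpp : 0 < p * (1 - p) := mul_pos h0 (by linarith)
  have hA0 : 0 < A := by positivity
  have hη0 : 0 ≤ η := Finset.sum_nonneg fun T _ => by split_ifs <;> positivity
  have hX0 : 0 ≤ X := Finset.sum_nonneg fun T _ => by split_ifs <;> positivity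
  set a : α → ℝ := fun v => ∑ T : Finset ι, if T ≠ ∅ ∧ T ⊆ B v then co p F T ^ 2 else 0 with ha
  have hav : ∀ v ∈ U, a v = a u := by
    intro v hv
    obtain ⟨τ, hτ, hB⟩ := hsym v hv
    simp only [ha]
    rw [← Equiv.sum_comp (Equiv.finsetCongr τ)]
    refine Finset.sum_congr rfl fun T _ => ?_
    rw [Equiv.finsetCongr_apply, co_map τ F hτ]
    congr 1
    apply propext
    constructor
    · rintro ⟨h2, h3⟩
      refine ⟨fun h => h2 (by simp [h]), fun i hi => (hB i).mp (h3 ?_)⟩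
      exact Finset.mem_map_of_mem _ hi
    · rintro ⟨h2, h3⟩
      refine ⟨fun h => h2 (by simpa using h), fun j hj => ?_⟩
      obtain ⟨i, hi, rfl⟩ := Finset.mem_map.mp hj
      exact (hB i).mpr (h3 hi)
  have hXa : X ≤ a u := Finset.sum_le_sum fun T _ => by
    by_cases h : T ≠ ∅ ∧ T ⊆ B u ∧ T.card ≤ d
    · rw [if_pos h, if_pos ⟨h.1, h.2.1⟩]
    · rw [if_neg h]; split_ifs <;> positivity
  have hsum : ∑ v ∈ U, a v ≤ 1 := by
    have e2 : ∑ T : Finset ι, co p F T ^ 2 ≤ 1 := by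
      rw [← parseval h0 h1]
      have : Ex p (fun x => F x ^ 2) ≤ Ex p (fun _ : ι → Bool => (1 : ℝ)) :=
        Ex_mono h0 h1 fun x => by rcases hF x with h | h <;> simp [h]
      rwa [Ex_const] at this
    refine le_trans ?_ e2
    simp only [ha]
    rw [Finset.sum_comm]
    refine Finset.sum_le_sum fun T _ => ?_
    rw [← Finset.sum_filter, Finset.sum_const, nsmul_eq_mul]
    have : (U.filter fun v => T ≠ ∅ ∧ T ⊆ B v).card ≤ 1 := by
      rw [Finset.card_le_one]
      intro v hv w hw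
      rw [Finset.mem_filter] at hv hw
      by_contra hne
      obtain ⟨i, hi⟩ := Finset.nonempty_iff_ne_empty.mpr hv.2.1
      exact Finset.disjoint_left.mp (hdisj v hv.1 w hw.1 hne) (hv.2.2 hi) (hw.2.2 hi)
    have h5 : ((U.filter fun v => T ≠ ∅ ∧ T ⊆ B v).card : ℝ) ≤ 1 := by exact_mod_cast this
    nlinarith [sq_nonneg (co p F T)]
  have hm : (U.card : ℝ) * X ≤ 1 := by
    rw [Finset.sum_congr rfl hav, Finset.sum_const, nsmul_eq_mul] at hsum
    exact le_trans (mul_le_mul_of_nonneg_left hXa (Nat.cast_nonneg _)) hsum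
  have h3 : X ^ 3 ≤ (δ * η) ^ 3 := by
    have hη3 : 0 ≤ η ^ 3 := by positivity
    have hδ3 : 0 ≤ δ ^ 3 := by positivity
    calc X ^ 3 = X ^ 2 * X := by ring
      _ ≤ (4 * A * η ^ 3) * X := mul_le_mul_of_nonneg_right hk hX0
      _ ≤ (δ ^ 3 * U.card * η ^ 3) * X := by gcongr
      _ = δ ^ 3 * η ^ 3 * (U.card * X) := by ring
      _ ≤ δ ^ 3 * η ^ 3 * 1 := by gcongr
      _ = (δ * η) ^ 3 := by ring
  exact le_of_pow_le_pow_left₀ (by norm_num) (mul_nonneg hδ0 hη0) h3

/-- The symmetric-block estimate, after freezing the coordinates in `A`. -/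
lemma sym_block_restrict (h0 : 0 < p) (h1 : p < 1) {α : Type} [DecidableEq α] (U : Finset α)
    (A : Finset ι) (B : α → Finset ι)
    (hdisj : ∀ u ∈ U, ∀ v ∈ U, u ≠ v → Disjoint (B u) (B v))
    (F : (ι → Bool) → ℝ) (hF : ∀ x, F x = 0 ∨ F x = 1) (u : α)
    (hsym : ∀ v ∈ U, ∃ τ : ι ≃ ι, (∀ y, F (fun i => y (τ i)) = F y) ∧ (∀ i ∈ A, τ i = i) ∧
      ∀ i, τ i ∈ B v ↔ i ∈ B u)
    (d : ℕ) (δ : ℝ) (hδ0 : 0 ≤ δ) (hδ : 4 * (4 / (p * (1 - p))) ^ d ≤ δ ^ 3 * U.card) :
    (∑ S : Finset ι, if S \ A ≠ ∅ ∧ S \ A ⊆ B u ∧ (S \ A).card ≤ d then co p F S ^ 2 else 0)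
      ≤ δ * (∑ S : Finset ι, if ¬ Disjoint (S \ A) (B u) then co p F S ^ 2 else 0) := by
  rw [← Ex_restrict_sum h0 h1 A F (fun T => T ≠ ∅ ∧ T ⊆ B u ∧ T.card ≤ d),
    ← Ex_restrict_sum h0 h1 A F (fun T => ¬ Disjoint T (B u)), ← Ex_mul_left]
  refine Ex_mono h0 h1 fun h => ?_
  refine sym_block h0 h1 U B hdisj _ (fun x => hF _) u ?_ d δ hδ0 hδ
  intro v hv
  obtain ⟨τ, hτ, hA, hB⟩ := hsym v hv
  refine ⟨τ, fun y => ?_, hB⟩
  rw [← hτ (A.piecewise h y)]
  congr 1
  funext i
  by_cases hi : i ∈ A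
  · rw [hA i hi, Finset.piecewise_eq_of_mem _ _ _ hi, Finset.piecewise_eq_of_mem _ _ _ hi]
  · have hi' : τ i ∉ A := fun h' => hi (by
      have := τ.injective (hA _ h')
      rwa [this] at h')
    rw [Finset.piecewise_eq_of_notMem _ _ _ hi, Finset.piecewise_eq_of_notMem _ _ _ hi']

/-- Margulis-Russo, Fourier form. -/
lemma hasDerivAt_Ex (h0 : 0 < p) (h1 : p < 1) (F : (ι → Bool) → ℝ) :
    HasDerivAt (fun q => Ex q F) ((∑ e, co p F {e}) / sg p) p := by
  have hs := sg_pos h0 h1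
  have h2 := sg_sq h0 h1
  have dom : ∀ b : Bool, HasDerivAt (fun q => om q b) (om p b * ch p b / sg p) p := by
    intro b
    have h3 : (1 - p) ≠ 0 := by linarith
    have h5 : p ≠ 0 := h0.ne'
    cases b
    · have : om p false * ch p false / sg p = -1 := by
        simp only [om, ch, Bool.false_eq_true, if_false]
        rw [mul_div_assoc, div_div, ← sq, h2]; field_simp; ring
      rw [this]
      simpa [om] using (hasDerivAt_id p).const_sub 1
    · have : om p true * ch p true / sg p = 1 := by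
        simp only [om, ch, if_true]
        rw [mul_div_assoc, div_div, ← sq, h2]; field_simp
      rw [this]
      exact hasDerivAt_id' p
  have dw : ∀ x : ι → Bool,
      HasDerivAt (fun q => wt q x) (wt p x * (∑ e, ch p (x e)) / sg p) p := by
    intro x
    have := HasDerivAt.fun_finsetProd (u := Finset.univ) (f := fun i q => om q (x i))
      (fun i _ => dom (x i))
    refine HasDerivAt.congr_deriv this ?_
    symm
    rw [Finset.mul_sum, Finset.sum_div]
    refine Finset.sum_congr rfl fun e _ => ?_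
    unfold wt
    rw [← Finset.mul_prod_erase Finset.univ _ (Finset.mem_univ e), smul_eq_mul]
    ring
  have := HasDerivAt.fun_sum (u := Finset.univ)
    (fun x _ => (dw x).mul_const (F x))
  refine HasDerivAt.congr_deriv this ?_
  symm
  unfold co
  rw [← Ex_sum]
  unfold Ex
  rw [Finset.sum_div]
  refine Finset.sum_congr rfl fun x _ => ?_
  simp only [chi, Finset.prod_singleton]
  rw [← Finset.mul_sum]; ring

lemma co_single_mono (h0 : 0 < p) (h1 : p < 1) (F : (ι → Bool) → ℝ)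
    (hF : ∀ x, F x = 0 ∨ F x = 1) (e : ι)
    (hm : ∀ x, F (Function.update x e false) ≤ F (Function.update x e true)) :
    sg p * co p F {e} = ∑ T : Finset ι, if e ∈ T then co p F T ^ 2 else 0 := by
  have hs := sg_pos h0 h1
  set L : (ι → Bool) → ℝ := fun x => F x - avg p {e} F x with hL
  have coL : ∀ T, co p L T = if e ∈ T then co p F T else 0 := by
    intro T
    rw [hL, co_sub, co_avg h0 h1]
    by_cases h : e ∈ T <;> simp [h]
  have L2 : Ex p (fun x => L x ^ 2) = ∑ T : Finset ι, if e ∈ T then co p F T ^ 2 else 0 := by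
    rw [parseval h0 h1]
    refine Finset.sum_congr rfl fun T _ => ?_
    rw [coL]; split_ifs <;> simp
  have : co p F {e} = co p L {e} := by rw [coL]; simp
  rw [← L2, this]
  unfold co
  rw [← Ex_mul_left]
  refine Ex_congr fun x => ?_
  simp only [hL, avg_single, chi, Finset.prod_singleton, ch]
  have hx : F x = F (Function.update x e (x e)) := by rw [Function.update_eq_self]
  have hm' := hm x
  rw [hx]
  have hne : sg p ≠ 0 := hs.ne'
  rcases hF (Function.update x e false) with a | a <;>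
    rcases hF (Function.update x e true) with b | b <;>
    cases x e <;> simp only [a, b, if_true, Bool.false_eq_true, if_false] at hm' ⊢ <;>
    first | (exfalso; linarith) | (field_simp; ring)

lemma russo (h0 : 0 < p) (h1 : p < 1) (F : (ι → Bool) → ℝ)
    (hF : ∀ x, F x = 0 ∨ F x = 1)
    (hm : ∀ e x, F (Function.update x e false) ≤ F (Function.update x e true)) :
    HasDerivAt (fun q => Ex q F)
      ((∑ T : Finset ι, (T.card : ℝ) * co p F T ^ 2) / (p * (1 - p))) p := by
  have hs := sg_pos h0 h1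
  refine HasDerivAt.congr_deriv (hasDerivAt_Ex h0 h1 F) ?_
  symm
  rw [← sg_sq h0 h1]
  have : ∑ T : Finset ι, (T.card : ℝ) * co p F T ^ 2 = sg p * ∑ e, co p F {e} := by
    rw [Finset.mul_sum]
    simp_rw [co_single_mono h0 h1 F hF _ (hm _)]
    rw [Finset.sum_comm]
    refine Finset.sum_congr rfl fun T _ => ?_
    rw [← Finset.sum_filter]; simp
  rw [this]; field_simp

lemma var_eq (h0 : 0 < p) (h1 : p < 1) (F : (ι → Bool) → ℝ) (hF : ∀ x, F x = 0 ∨ F x = 1) :
    Ex p F * (1 - Ex p F) = ∑ T : Finset ι, if T ≠ ∅ then co p F T ^ 2 else 0 := by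
  have e2 : Ex p F = ∑ T : Finset ι, co p F T ^ 2 := by
    rw [← parseval h0 h1]
    exact Ex_congr fun x => by rcases hF x with h | h <;> simp [h]
  have e3 : ∑ T : Finset ι, co p F T ^ 2
      = (∑ T : Finset ι, if T ≠ ∅ then co p F T ^ 2 else 0) + co p F ∅ ^ 2 := by
    rw [← Finset.sum_filter, Finset.filter_ne' Finset.univ ∅,
      Finset.sum_erase_add _ _ (Finset.mem_univ _)]
  rw [co_empty, ← e2] at e3
  linarith

end Vale.Agent.P063
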